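import Mathlib
import Vale.Agent.Lib.P331.Defs
import Vale.Agent.Lib.P331.LLMain

/-!
P331: every finite matroid of rank `k` admits an online rule that uses one sample per element
and is `1 / (16 (2 + ⌈log₂ ⌈log₂ k⌉⌉))`-competitive against the almighty adversary.
-/

namespace Vale.Agent.Results.P331.LogLogRankAlmighty

open MeasureTheory
open scoped NNReal ENNReal
open Vale.Agent.Lib.P331

universe u

/-- For every matroid `M` on a finite type `E` there are a finite nonempty seed space `R`
(the seed is uniform on `R`) and an online rule `ρ` such that: (1) the accepted set is always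
independent; (2) for all laws `D e` on `[0,∞)`, with the outcome `ω e = (sample, value)` of law
`∏_e D e ⊗ D e`, and for every way `adv` of choosing the arrival order from the whole outcome
and the seed, `E[OPT_M(V)] ≤ 16 (2 + ⌈log₂ ⌈log₂ rank M⌉⌉) · E[∑_{e ∈ A} V_e]`. -/
theorem result {E : Type u} [Fintype E] [DecidableEq E] (M : Matroid E) :
    ∃ (R : Type u) (_ : Fintype R) (_ : Nonempty R) (ρ : Rule E R),
      (∀ (s : E → ℝ≥0) (r : R) (v : E → ℝ≥0) (π : List E),
        M.Indep ((ρ.accepted s r v π : Finset E) : Set E)) ∧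
      ∀ (D : E → Measure ℝ≥0), (∀ e, IsProbabilityMeasure (D e)) →
        ∀ adv : (E → ℝ≥0 × ℝ≥0) → R → List E,
          (∀ ω r, (adv ω r).Nodup ∧ ∀ e, e ∈ adv ω r) →
          ∫⁻ ω, (opt M (fun e => (ω e).2) : ℝ≥0∞) ∂(Measure.pi fun e => (D e).prod (D e))
            ≤ 16 * (2 + (Nat.clog 2 (Nat.clog 2 M.eRank.toNat) : ℝ≥0∞)) *
              ((Fintype.card R : ℝ≥0∞)⁻¹ * ∑ r : R,
                ∫⁻ ω, ((∑ e ∈ ρ.accepted (fun e => (ω e).1) r (fun e => (ω e).2) (adv ω r),
                  (ω e).2 : ℝ≥0) : ℝ≥0∞) ∂(Measure.pi fun e => (D e).prod (D e))) := by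
  classical
  refine ⟨(E → Bool) × Fin (Nat.clog 2 (Nat.clog 2 M.eRank.toNat) + 2)
      × Fin (3 * 2 ^ Nat.clog 2 (Nat.clog 2 M.eRank.toNat)), inferInstance,
    ⟨(fun _ => false, 0, ⟨0, by positivity⟩)⟩,
    llRule M (fun e => (Fintype.equivFin E e : ℕ)) (Nat.clog 2 M.eRank.toNat)
      (Nat.clog 2 (Nat.clog 2 M.eRank.toNat)), ?_, ?_⟩
  · intro s r v π
    exact ll_accepted_indep M _ _ _ s r v π
  · intro D hD adv hadv
    have := hD
    exact ll_main_ratio M _ (fun a b h => (Fintype.equivFin E).injective (Fin.val_injective h))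
      _ _ (Nat.le_pow_clog (by norm_num) _) (Nat.le_pow_clog (by norm_num) _) D adv
      (fun ω r => (hadv ω r).2)

end Vale.Agent.Results.P331.LogLogRankAlmighty
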