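import Mathlib
import Vale.Agent.Lib.P331.Defs
import Vale.Agent.Lib.P331.LLMain
import Vale.Agent.Lib.P331.LLMeas

/-!
P331: every finite matroid of rank `k` admits a measurable online rule that uses one sample per
element and is `1 / (16 (2 + ⌈log₂ ⌈log₂ k⌉⌉))`-competitive against the almighty adversary.
-/

namespace Vale.Agent.Results.P331.LogLogRankMeasurableRule

open MeasureTheory
open scoped NNReal ENNReal
open Vale.Agent.Lib.P331

universe u

/-- For every matroid `M` on a finite type `E` there are a finite nonempty seed space `R`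
(the seed is uniform on `R`) and an online rule `ρ` such that: (0) for every seed, accepted set
and arriving element, the decision of `ρ` is a measurable function of the samples and of the
arriving value, and it does not depend on the list of earlier arrivals; (1) the accepted set is
always independent; (2) for all laws `D e` on `[0,∞)`, with the outcome `ω e = (sample, value)`
of law `∏_e D e ⊗ D e`, and for every way `adv` of choosing the arrival order from the whole
outcome and the seed, `E[OPT_M(V)] ≤ 16 (2 + ⌈log₂ ⌈log₂ rank M⌉⌉) · E[∑_{e ∈ A} V_e]`. -/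
theorem result {E : Type u} [Fintype E] [DecidableEq E] (M : Matroid E) :
    ∃ (R : Type u) (_ : Fintype R) (_ : Nonempty R) (ρ : Rule E R),
      (∀ (r : R) (A : Finset E) (h : List (E × ℝ≥0)) (e : E),
        Measurable (fun p : (E → ℝ≥0) × ℝ≥0 => ρ.accept p.1 r A h e p.2)) ∧
      (∀ (s : E → ℝ≥0) (r : R) (A : Finset E) (h h' : List (E × ℝ≥0)) (e : E) (x : ℝ≥0),
        ρ.accept s r A h e x = ρ.accept s r A h' e x) ∧
      (∀ (s : E → ℝ≥0) (r : R) (v : E → ℝ≥0) (π : List E),
        M.Indep ((ρ.accepted s r v π : Finset E) : Set E)) ∧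
      ∀ (D : E → Measure ℝ≥0), (∀ e, IsProbabilityMeasure (D e)) →
        ∀ adv : (E → ℝ≥0 × ℝ≥0) → R → List E,
          (∀ ω r, (adv ω r).Nodup ∧ ∀ e, e ∈ adv ω r) →
          ∫⁻ ω, (opt M (fun e => (ω e).2) : ℝ≥0∞) ∂(Measure.pi fun e => (D e).prod (D e))
            ≤ 16 * (2 + (Nat.clog 2 (Nat.clog 2 M.eRank.toNat) : ℝ≥0∞)) *
              ((Fintype.card R : ℝ≥0∞)⁻¹ * ∑ r : R,
                ∫⁻ ω, ((∑ e ∈ ρ.accepted (fun e => (ω e).1) r (fun e => (ω e).2) (adv ω r),
                  (ω e).2 : ℝ≥0) : ℝ≥0∞) ∂(Measure.pi fun e => (D e).prod (D e))) := by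
  classical
  refine ⟨(E → Bool) × Fin (Nat.clog 2 (Nat.clog 2 M.eRank.toNat) + 2)
      × Fin (3 * 2 ^ Nat.clog 2 (Nat.clog 2 M.eRank.toNat)), inferInstance,
    ⟨(fun _ => false, 0, ⟨0, by positivity⟩)⟩,
    llRule M (fun e => (Fintype.equivFin E e : ℕ)) (Nat.clog 2 M.eRank.toNat)
      (Nat.clog 2 (Nat.clog 2 M.eRank.toNat)), ?_, ?_, ?_, ?_⟩
  · intro r A h e
    exact ll_accept_measurable M _ _ _ r A h e
  · intro s r A h h' e x
    exact ll_accept_history M _ _ _ s r A h h' e x
  · intro s r v π
    exact ll_accepted_indep M _ _ _ s r v π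
  · intro D hD adv hadv
    have := hD
    exact ll_main_ratio M _ (fun a b h => (Fintype.equivFin E).injective (Fin.val_injective h))
      _ _ (Nat.le_pow_clog (by norm_num) _) (Nat.le_pow_clog (by norm_num) _) D adv
      (fun ω r => (hadv ω r).2)

end Vale.Agent.Results.P331.LogLogRankMeasurableRule
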